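import Vale.Agent.P097.H194.St.Pick
import Vale.Agent.P097.H509.St.Defs

/-!
# P097 / block (T), straight line: numbers of the pick, and 194's `Pk` as 509's `Pick`
-/

set_option linter.all false

open Complex Metric Filter Topology Set MeasureTheory
open scoped ComplexConjugate ENNReal

namespace Vale.Agent.P097.H650.St

open Vale.Agent.P097.TC Vale.Agent.P097.H226.W Vale.Agent.P097.H315 Vale.Agent.P097.H845.St
open Vale.Agent.P097.H509.St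

theorem pow_log {E : ℝ} (h0 : 0 < E) (h1 : E ≤ 1) : E ^ 6 * max (Real.log E⁻¹) 0 ≤ 1 := by
  have h2 : 0 ≤ Real.log E⁻¹ := Real.log_nonneg ((one_le_inv₀ h0).2 h1)
  rw [max_eq_left h2]
  have h3 : Real.log E⁻¹ ≤ E⁻¹ := (Real.log_le_sub_one_of_pos (inv_pos.2 h0)).trans (by linarith)
  have h4 : E ^ 6 * Real.log E⁻¹ ≤ E ^ 6 * E⁻¹ := mul_le_mul_of_nonneg_left h3 (by positivity)
  have h5 : E ^ 6 * E⁻¹ = E ^ 5 := by field_simp
  have h6 : E ^ 5 ≤ 1 := pow_le_one₀ h0.le h1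
  linarith

/-- numbers of the pick: location, logarithm and range, for a large start `m` -/
theorem sel_num {C κ S : ℝ} (hC : 0 ≤ C) (hκ : 0 < κ) (hS : 0 < S) :
    ∃ M : ℕ, ∀ m : ℕ, M ≤ m → (1 / 2 : ℝ) ^ m ≤ κ ∧ (1 / 2 : ℝ) ^ m ≤ S ∧
      ∀ {y' y x r E : ℝ} {i : ℕ}, |y'| ≤ (1 / 2) ^ m → 0 < r → 0 < E → E ≤ 1 →
        |y' - y| + |x| + (1 / 2) ^ (m + i) + r ≤ C * (1 / 2) ^ m * E ^ 6 →
        |y| + |x| + r ≤ κ ∧ r * max (Real.log E⁻¹) 0 ≤ κ ∧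
        |y' - y| + |x| + (1 / 2) ^ (m + i) + r ≤ S := by
  have hpos : 0 < min κ S / (C + 1) := div_pos (lt_min hκ hS) (by linarith)
  obtain ⟨M, hM⟩ := exists_pow_lt_of_lt_one hpos (by norm_num : (1 / 2 : ℝ) < 1)
  refine ⟨M, fun m hm => ?_⟩
  have h1 : (1 / 2 : ℝ) ^ m ≤ (1 / 2) ^ M := pow_le_pow_of_le_one (by norm_num) (by norm_num) hm
  have h2 : (1 / 2 : ℝ) ^ m < min κ S / (C + 1) := lt_of_le_of_lt h1 hM
  have h3 : (1 / 2 : ℝ) ^ m * (C + 1) < min κ S := (lt_div_iff₀ (by linarith)).1 h2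
  have hp : 0 < (1 / 2 : ℝ) ^ m := by positivity
  have hCp : 0 ≤ C * (1 / 2 : ℝ) ^ m := mul_nonneg hC hp.le
  have h4 : C * (1 / 2 : ℝ) ^ m + (1 / 2) ^ m < min κ S := by linarith
  have h5 : C * (1 / 2 : ℝ) ^ m + (1 / 2) ^ m < κ := h4.trans_le (min_le_left _ _)
  have h6 : C * (1 / 2 : ℝ) ^ m + (1 / 2) ^ m < S := h4.trans_le (min_le_right _ _)
  refine ⟨by linarith, by linarith, fun {y' y x r E i} hy' hr hE hE1 hD => ?_⟩
  have e1 : E ^ 6 ≤ 1 := pow_le_one₀ hE.le hE1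
  have e2 : C * (1 / 2 : ℝ) ^ m * E ^ 6 ≤ C * (1 / 2 : ℝ) ^ m * 1 :=
    mul_le_mul_of_nonneg_left e1 hCp
  have q0 : 0 < (1 / 2 : ℝ) ^ (m + i) := by positivity
  have q1 := abs_nonneg (y' - y)
  have q2 := abs_nonneg x
  have q3 : |y| ≤ |y'| + |y' - y| := by
    have := abs_sub_abs_le_abs_sub y y'
    rw [abs_sub_comm y y'] at this
    linarith
  refine ⟨by linarith, ?_, by linarith⟩
  have l0 : 0 ≤ max (Real.log E⁻¹) 0 := le_max_right _ _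
  have r1 : r ≤ C * (1 / 2 : ℝ) ^ m * E ^ 6 := by linarith
  calc r * max (Real.log E⁻¹) 0 ≤ C * (1 / 2 : ℝ) ^ m * E ^ 6 * max (Real.log E⁻¹) 0 :=
        mul_le_mul_of_nonneg_right r1 l0
    _ = C * (1 / 2 : ℝ) ^ m * (E ^ 6 * max (Real.log E⁻¹) 0) := by ring
    _ ≤ C * (1 / 2 : ℝ) ^ m * 1 := mul_le_mul_of_nonneg_left (pow_log hE hE1) hCp
    _ ≤ κ := by linarith

/-- 194's near maximiser is 509's pick -/
theorem pick_of_pk {b : ℝ} {F : ℂ → ℂ} {al p th : ℂ × ℂ → ℂ} {A B : Set ℝ}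
    {Xp op X om e V η κ ρ₀ y' y x r : ℝ} {m i : ℕ}
    (P : H194.St.Pk (fun y x h => Es (LL al p) Xp op y x h) A B η ρ₀ (1 / 4) (1 / (4 * Xp)) y' m i
      y x r)
    (hloc : |y| + |x| + r ≤ κ)
    (hlg : r * max (Real.log (Es (LL al p) Xp op y x r)⁻¹) 0 ≤ κ)
    (hmv : ∀ h : ℝ, r ≤ h → (X + 5) * h ≤ 1 / 2 → MV b F al th X om e V y x h) :
    Pick b F al p th A B Xp op X om e V 12 η κ y x r (Es (LL al p) Xp op y x r) :=
  ⟨hloc, P.r0, P.E0, rfl, P.mz, P.gd, hmv, hlg⟩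

end Vale.Agent.P097.H650.St
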