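import Vale.Agent.P097.H650.St.Num
import Vale.Agent.P097.H557.St.BG
import Vale.Agent.P097.H855.St.ExitC
import Vale.Agent.P097.H561.Anc
import Vale.Agent.P097.H19.Lat

/-!
# P097 / block (T), straight line: assembly of `SelSt`

`sel_st : SelSt` over 855 (exit), 194 (pick), 557 ((BG)), 561 (ancestors), 19 (`lat`).
-/

set_option linter.all false

open Complex Metric Filter Topology Set MeasureTheory
open scoped ComplexConjugate ENNReal

namespace Vale.Agent.P097.H650.St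

open Vale.Agent.P097.TC Vale.Agent.P097.H226.W Vale.Agent.P097.H315 Vale.Agent.P097.H845.St
open Vale.Agent.P097.H509.St

theorem mv_mono {b : ℝ} {F : ℂ → ℂ} {al th : ℂ × ℂ → ℂ} {X om e V X' om' e' V' y x h : ℝ}
    (hh : 0 ≤ h) (hX : X ≤ X') (ho : om' ≤ om) (he : e' ≤ e) (hV : V ≤ V')
    (H : MV b F al th X om e V y x h) : MV b F al th X' om' e' V' y x h := by
  obtain ⟨⟨β, b1, b2, b3, b4, b5⟩, hv⟩ := H
  exact ⟨⟨β, (mul_le_mul_of_nonneg_right ho hh).trans b1,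
    (mul_le_mul_of_nonneg_right ho hh).trans b2, b3.trans (mul_le_mul_of_nonneg_right hX hh),
    by linarith, he.trans b5⟩, hv.trans hV⟩

/-- size `≤ s < 1` bounds the oscillation of both coordinates of the line -/
theorem osc_of {al p : ℂ × ℂ → ℂ} {X om y x h s : ℝ}
    (hL : ContinuousOn (LL al p) (Pc X om y x h)) (ho : 0 ≤ om) (hh : 0 ≤ h)
    (hs : Es (LL al p) X om y x h ≤ s) (h1 : s < 1) :
    ∀ z ∈ Pc X om y x h, ∀ z' ∈ Pc X om y x h, ‖al z - al z'‖ ≤ s ∧ ‖p z - p z'‖ ≤ s := by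
  intro z hz z' hz'
  have hb : Bornology.IsBounded (LL al p '' Pc X om y x h) :=
    ((H855.St.Pc_compact X om y x h ho hh).image_of_continuousOn hL).isBounded
  have h2 : dist (LL al p z) (LL al p z') ≤ diam (LL al p '' Pc X om y x h) :=
    dist_le_diam_of_mem hb (mem_image_of_mem _ hz) (mem_image_of_mem _ hz')
  have h3 : diam (LL al p '' Pc X om y x h) ≤ s := by
    by_contra hc
    push Not at hc
    have : s < Es (LL al p) X om y x h := lt_min h1 hc
    linarith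
  have h4 : dist (LL al p z) (LL al p z') ≤ s := h2.trans h3
  rw [Prod.dist_eq] at h4
  have h5 : dist (al z) (al z') ≤ s := (le_max_left _ _).trans h4
  have h6 : dist (p z) (p z') ≤ s := (le_max_right _ _).trans h4
  rw [dist_eq_norm] at h5 h6
  exact ⟨h5, h6⟩

theorem es_01 {al p : ℂ × ℂ → ℂ} {X om : ℝ} (y x h : ℝ) :
    0 ≤ Es (LL al p) X om y x h ∧ Es (LL al p) X om y x h ≤ 1 :=
  ⟨le_min zero_le_one diam_nonneg, min_le_left _ _⟩

/-- the translated world of 561 in the literals of H509/St/Defs -/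
theorem mv_of {b : ℝ} {F : ℂ → ℂ} {al th : ℂ × ℂ → ℂ} {X om e V y x h : ℝ}
    (h1 : Md b F (fun z => th (z + H561.Anc.apx y x)) X om e h)
    (h2 : |Vq F (fun z => al (z + H561.Anc.apx y x)) (fun z => th (z + H561.Anc.apx y x)) h| ≤ V) :
    MV b F al th X om e V y x h := by
  have e1 : ∀ z : ℂ × ℂ, z + H561.Anc.apx y x = tr y x z := by
    intro z
    refine Prod.ext ?_ ?_
    · simp [H561.Anc.apx, tr, add_comm]
    · simp [H561.Anc.apx, tr, add_comm]
  have e2 : (fun z => th (z + H561.Anc.apx y x)) = th ∘ tr y x := by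
    funext z
    rw [e1 z]; rfl
  have e3 : (fun z => al (z + H561.Anc.apx y x)) = al ∘ tr y x := by
    funext z
    rw [e1 z]; rfl
  rw [e2] at h1
  rw [e2, e3] at h2
  exact ⟨h1, h2⟩

/-- **row ST-11** : assembly -/
theorem sel_of (hL : H226.W.Lat) : SelSt := by
  intro Λ b F q hc hg hper X om e V hX hom hom2 he hV
  have cr := H855.St.crv_of hc hg hper
  have hom1 : om ≤ 1 := by linarith
  have hX1 : (1 : ℝ) ≤ X := by linarith
  obtain ⟨R, hR, hst⟩ := H557.St.start_st hL hc hg (V₁ := V) he hX1 hom hom1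
  obtain ⟨R', hR', hbg⟩ := H557.St.bg_st hL hc hg (V₁ := V) he hX1 hom hom1
  obtain ⟨ρ₀, hρ, hρ1, hex⟩ := H855.St.exit_sw cr (c₀ := e) (d := e) (R := R) he he
  have hX2 : (2 : ℝ) ≤ X + 2 := by linarith
  have he2 : 0 < e / 2 := by linarith
  set R₁ : ℝ := R + 1 with hR₁
  obtain ⟨X₁, hX₁, e₁, he₁, V₁, hV₁, hanc⟩ := H561.Anc.anc_st cr (X := X + 2) (om := om)
    (e := min e (e / 2)) (R := max R' R₁) (C₀ := 12) hX2 hom hom2 (lt_min he he2) (by norm_num)
  set X' : ℝ := 2 * (X + 2) + 2 * X₁ with hX'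
  have hX'p : 0 < X' + 5 := by linarith
  set S : ℝ := 1 / (2 * (X' + 5)) with hS
  have hSp : 0 < S := by rw [hS]; positivity
  have hS1 : (X' + 5) * S = 1 / 2 := by rw [hS]; field_simp
  have hS2 : (X + 5) * S ≤ 1 := by
    have : (X + 5) * S ≤ (X' + 5) * S := mul_le_mul_of_nonneg_right (by linarith) hSp.le
    linarith
  have hS4 : S ≤ 1 / (4 * (X + 2)) := by
    rw [le_div_iff₀ (by linarith)]
    have : (2 * (X + 2)) * S ≤ (X' + 5) * S := mul_le_mul_of_nonneg_right (by linarith) hSp.le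
    linarith
  have hS5 : (X + 2) * S ≤ 1 / 4 := by
    have : (2 * (X + 2)) * S ≤ (X' + 5) * S := mul_le_mul_of_nonneg_right (by linarith) hSp.le
    linarith
  have hS6 : S ≤ 1 / 8 := by
    have : (4 : ℝ) * S ≤ (X' + 5) * S := mul_le_mul_of_nonneg_right (by linarith) hSp.le
    linarith
  refine ⟨X + 2, om, X', om, e₁, V₁, 12, ⟨hX2, hom, hom2, by linarith, hom, le_rfl, he₁, hV₁,
    by norm_num⟩, ?_⟩
  intro η κ hη hκ δ al p th W hnest hwall A B hB h0A hJ
  -- large start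
  obtain ⟨M₁, hM₁⟩ := H194.St.pick_st hB h0A hη hJ hρ hρ1
  obtain ⟨M₂, hM₂⟩ := sel_num (C := 2 ^ 77 / ρ₀ ^ 8) (κ := min κ (1 / 8)) (S := S) (by positivity)
    (lt_min hκ (by norm_num)) hSp
  set m : ℕ := max M₁ M₂ with hm
  obtain ⟨n1, n2, n3⟩ := hM₂ m (le_max_right _ _)
  have hp : 0 < (1 / 2 : ℝ) ^ m := by positivity
  -- the exit apex
  obtain ⟨y', hy', hw⟩ := hwall ((1 / 2 : ℝ) ^ m) hp
  -- the start point
  have hh : (X + 5) * (1 / 2 : ℝ) ^ m ≤ 1 :=
    (mul_le_mul_of_nonneg_left n2 (by linarith)).trans hS2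
  obtain ⟨z₀, a1, a2, a3, a4, a5, a6, a7, a8⟩ := hst W.sq _ hp hh (hnest _ hp hh).1
    (hnest _ hp hh).2
  have hz₀ : z₀ ∈ Pc (X + 2) om y' 0 ((1 / 2 : ℝ) ^ m) :=
    a4 (X + 2) om y' 0 le_rfl le_rfl (by linarith) (by rw [abs_zero]; linarith)
  have hXm : (X + 2) * (1 / 2 : ℝ) ^ m ≤ 1 / 4 :=
    (mul_le_mul_of_nonneg_left n2 (by linarith)).trans hS5
  have hy8 : |y'| < 1 / 8 := hy'.trans_le (n2.trans hS6)
  obtain ⟨n, hsum, hzone⟩ := hex hX2 hom hom2 W (y' := y') (x' := 0) (m := m) (by linarith)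
    (by rw [abs_zero]; linarith) hz₀ a5 a6 a7 hw ρ₀ le_rfl
  -- the pick
  obtain ⟨i, hin, y, x, r, P⟩ := hM₁ (d := 1 / 4) (rm := 1 / (4 * (X + 2)))
    (Ev := fun y x h => Es (LL al p) (X + 2) om y x h) (fun y x h => es_01 y x h)
    (le_max_left _ _) (n2.trans hS4) (y' := y') (by linarith) (n := n) hsum
  have hE1 : Es (LL al p) (X + 2) om y x r ≤ 1 := (es_01 y x r).2
  obtain ⟨l1, l2, l3⟩ := n3 hy'.le P.r0 P.E0 hE1 P.ds
  have l1a : |y| + |x| + r ≤ κ := l1.trans (min_le_left _ _)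
  have l1b : |y| + |x| + r ≤ 1 / 8 := l1.trans (min_le_right _ _)
  have hr := P.r0
  have ay := abs_nonneg y
  have ax' := abs_nonneg x
  have q0 : 0 < (1 / 2 : ℝ) ^ (m + i) := by positivity
  have q1 := abs_nonneg (y' - y)
  refine ⟨y, x, r, _, pick_of_pk P l1a (l2.trans (min_le_left _ _)) ?_⟩
  have key : ∀ h : ℝ, r ≤ h → h ≤ S → MV b F al th X₁ om e₁ V₁ y x h := by
    suffices hs : ∀ h₀ : ℝ, r ≤ h₀ → h₀ ≤ S →
        Md b F (fun z => th (z + H561.Anc.apx y x)) X₁ om e₁ h₀ ∧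
        |Vq F (fun z => al (z + H561.Anc.apx y x)) (fun z => th (z + H561.Anc.apx y x)) h₀| ≤ V₁ ∧
        |(th (pt y x h₀)).im| ≤ b - e₁ ∧ |(al (pt y x h₀)).im| ≤ V₁ ∧ ‖p (pt y x h₀)‖ ≤ V₁ ∧
        ‖al (pt y x h₀) - al (pt y x r)‖ ≤ V₁ * (1 + Real.log (h₀ / r)) from fun h₀ hh₀ hh₁ =>
      mv_of (hs h₀ hh₀ hh₁).1 (hs h₀ hh₀ hh₁).2.1
    refine hanc W.sq (y := y) (x := x) (r := r)
      (D := |y' - y| + |x| + (1 / 2) ^ (m + i) + r) (S := S) hr (by linarith) l3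
      (by linarith) (by linarith) ?_ ?_
    · intro h hD hhS
      have hzn : ∀ j < n, ∀ z ∈ Pc (X + 2) om y' 0 ((1 / 2 : ℝ) ^ (m + j)),
          |(th z).im| ≤ b - e / 2 ∧ e / 2 ≤ ‖deriv F (th z)‖ ∧ |(al z).im| ≤ R₁ ∧
            ‖p z‖ ≤ R₁ := ?_
      · obtain ⟨β, c1, c2, c3, c4, -⟩ := hbg W.sq S hS2 (fun t ht htS => hnest t ht
          ((mul_le_mul_of_nonneg_left htS (by linarith)).trans hS2)) (X + 2) om le_rfl le_rfl
          (e / 2) R₁ m n i y' y x r hy'.le hzn hin hr h hD hhS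
        exact ⟨β, c1, c2, c3, c4⟩
      intro j hj z hz
      obtain ⟨z1, z2, z3, -, -⟩ := hzone j hj z hz
      have z5 : ‖al z - al z₀‖ < 1 ∧ ‖p z - p z₀‖ < 1 := by
        have hlt := z1.trans_le hρ1
        have e1 : ‖(LL al p z - LL al p z₀).1‖ ≤ ‖LL al p z - LL al p z₀‖ := norm_fst_le _
        have e2 : ‖(LL al p z - LL al p z₀).2‖ ≤ ‖LL al p z - LL al p z₀‖ := norm_snd_le _
        exact ⟨e1.trans_lt hlt, e2.trans_lt hlt⟩
      refine ⟨z2, z3, ?_, ?_⟩
      · have h1 : |(al z - al z₀).im| ≤ ‖al z - al z₀‖ := Complex.abs_im_le_norm _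
        rw [Complex.sub_im] at h1
        have h2 := abs_sub_abs_le_abs_sub (al z).im (al z₀).im
        linarith [z5.1]
      · have h2 := norm_sub_norm_le (p z) (p z₀)
        linarith [z5.2]
    · intro h hrh hhD hlt
      have hh0 : 0 < h := hr.trans_le hrh
      have hhS : h ≤ S := hhD.trans l3
      have hle : Es (LL al p) (X + 2) om y x h ≤ 12 * (r / h) ^ 2 := by
        refine (P.ab h hrh hhD (hhS.trans hS4)).trans ?_
        refine mul_le_mul_of_nonneg_right ?_ (by positivity)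
        linarith
      have hXh : (X + 2) * h ≤ 1 / 4 := (mul_le_mul_of_nonneg_left hhS (by linarith)).trans hS5
      have hsub : Pc (X + 2) om y x h ⊆ Bx 1 ∩ Qu :=
        H855.St.Pc_sub hom hh0 (by linarith) (by linarith)
      have hcL : ContinuousOn (LL al p) (Pc (X + 2) om y x h) :=
        ((W.sq.dal.continuousOn.mono hsub).prodMk (W.sq.dp.continuousOn.mono hsub))
      intro z hz z' hz'
      obtain ⟨o1, o2⟩ := osc_of hcL hom.le hh0.le hle hlt z hz z' hz'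
      have e3 : ((al z, p z) : ℂ × ℂ) - (al z', p z') = (al z - al z', p z - p z') := rfl
      rw [e3, Prod.norm_def]
      exact max_le o1 o2
  intro h hrh hh5
  have hh0 : 0 < h := hr.trans_le hrh
  have hhS : h ≤ S := by
    by_contra hc
    push Not at hc
    have : (X' + 5) * S < (X' + 5) * h := mul_lt_mul_of_pos_left hc hX'p
    linarith
  exact mv_mono hh0.le (by linarith) le_rfl le_rfl le_rfl (key h hrh hhS)

theorem sel_st : SelSt := sel_of H19.lat

end Vale.Agent.P097.H650.St
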